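import Vale.Agent.P061.Main
import Vale.Agent.P061.KS

namespace Vale.Agent.Results.P061.ThinTree

open Vale.Agent.P061

theorem result :
    ∃ C : ℝ, ∀ k : ℕ, 1 ≤ k → ∀ (V E : Type) [Finite V] [Finite E] (ends : E → Sym2 V),
      (∀ e, ¬ (ends e).IsDiag) → 2 ≤ Nat.card V → EdgeConnected ends k →
      ∃ T : Set E, IsSpanningTree ends T ∧ IsThin ends T (C / k) :=
  ofIter (iterS ks)

end Vale.Agent.Results.P061.ThinTree
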